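import Vale.Agent.P062.Final

open Vale.Agent.P062

/-- Maker has a winning strategy in the achievement game for Snaky on the initially empty board
`ℤ × ℤ`, with no handicap. -/
theorem Vale.Agent.Results.P062.SnakyWinner.result : MakerWins ∅ ∅ :=
  makerWins_empty
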