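import Vale.Agent.P062.Final2

open Vale.Agent.P062

/-- There is a strategy of Maker for the achievement game for Snaky on the empty board `ℤ × ℤ`,
without handicap, which uses only cells of the `17 × 17` board and owns an allowed copy after at
most `289` turns against every legal play of Breaker. -/
theorem Vale.Agent.Results.P062.StrategyBoard.result :
    ∃ σ : Strategy, WinsWithin σ (board 17) 289 :=
  exists_strategy
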